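import Mathlib

/-! P064 spread lemma (Park-Pham style proof of the FKNP theorem), abstract finite form. -/

namespace Vale.Agent.Lib.P064S

open Finset

/-- weight of the subset `W` in the `p`-random subset of the finite ground set `X` -/
noncomputable def bw {X : Type*} [Fintype X] (p : ℝ) (W : Finset X) : ℝ :=
  p ^ W.card * (1 - p) ^ (Fintype.card X - W.card)

/-- real indicator of a proposition -/
noncomputable def ind (P : Prop) : ℝ := by classical exact if P then 1 else 0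

lemma ind_of {P : Prop} (h : P) : ind P = 1 := by simp [ind, h]
lemma ind_not {P : Prop} (h : ¬ P) : ind P = 0 := by simp [ind, h]
lemma ind_nonneg (P : Prop) : 0 ≤ ind P := by
  by_cases h : P
  · rw [ind_of h]; norm_num
  · rw [ind_not h]
lemma ind_le_one (P : Prop) : ind P ≤ 1 := by
  by_cases h : P
  · rw [ind_of h]
  · rw [ind_not h]; norm_num
lemma ind_mono {P Q : Prop} (h : P → Q) : ind P ≤ ind Q := by
  by_cases hp : P
  · rw [ind_of hp, ind_of (h hp)]
  · rw [ind_not hp]; exact ind_nonneg Q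

section relative

variable {X : Type*} [DecidableEq X]

/-- expectation of `f` over the `p`-random subset of the finset `s` -/
noncomputable def ES (p : ℝ) (s : Finset X) (f : Finset X → ℝ) : ℝ :=
  ∑ W ∈ s.powerset, p ^ W.card * (1 - p) ^ (s.card - W.card) * f W

lemma ES_insert (p : ℝ) {a : X} {s : Finset X} (ha : a ∉ s) (f : Finset X → ℝ) :
    ES p (insert a s) f = (1 - p) * ES p s f + p * ES p s (fun W => f (insert a W)) := by
  unfold ES
  rw [Finset.sum_powerset_insert ha, Finset.mul_sum, Finset.mul_sum]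
  congr 1
  · apply Finset.sum_congr rfl
    intro W hW
    have hWs : W ⊆ s := Finset.mem_powerset.1 hW
    have hc : W.card ≤ s.card := Finset.card_le_card hWs
    rw [Finset.card_insert_of_notMem ha]
    have : s.card + 1 - W.card = (s.card - W.card) + 1 := by omega
    rw [this, pow_succ]
    ring
  · apply Finset.sum_congr rfl
    intro W hW
    have hWs : W ⊆ s := Finset.mem_powerset.1 hW
    have haW : a ∉ W := fun h => ha (hWs h)
    rw [Finset.card_insert_of_notMem ha, Finset.card_insert_of_notMem haW]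
    have : s.card + 1 - (W.card + 1) = s.card - W.card := by omega
    rw [this, pow_succ]
    ring

omit [DecidableEq X] in
lemma ES_lin (p : ℝ) (s : Finset X) (c d : ℝ) (g h : Finset X → ℝ) :
    ES p s (fun W => c * g W + d * h W) = c * ES p s g + d * ES p s h := by
  unfold ES
  rw [Finset.mul_sum, Finset.mul_sum, ← Finset.sum_add_distrib]
  apply Finset.sum_congr rfl
  intro W _
  ring

lemma ES_union (r q t : ℝ) (ht : 1 - t = (1 - r) * (1 - q)) (s : Finset X) :
    ∀ f : Finset X → ℝ,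
      ES r s (fun W1 => ES q s (fun W2 => f (W1 ∪ W2))) = ES t s f := by
  induction s using Finset.induction_on with
  | empty =>
    intro f
    simp [ES]
  | insert a s ha ih =>
    intro f
    have h1 : ∀ W1 : Finset X, ES q (insert a s) (fun W2 => f (W1 ∪ W2))
        = (1 - q) * ES q s (fun W2 => f (W1 ∪ W2))
          + q * ES q s (fun W2 => f (insert a (W1 ∪ W2))) := by
      intro W1
      rw [ES_insert q ha]
      simp only [Finset.union_insert]
    have h2 : ∀ W1 : Finset X, ES q (insert a s) (fun W2 => f (insert a W1 ∪ W2))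
        = (1 - q) * ES q s (fun W2 => f (insert a (W1 ∪ W2)))
          + q * ES q s (fun W2 => f (insert a (W1 ∪ W2))) := by
      intro W1
      rw [ES_insert q ha]
      simp only [Finset.union_insert, Finset.insert_union, Finset.insert_idem]
    rw [ES_insert r ha, ES_insert t ha]
    rw [funext h1, funext h2]
    rw [ES_lin, ES_lin]
    have e1 := ih f
    have e2 := ih (fun W => f (insert a W))
    rw [e1, e2]
    have ht' : t = 1 - (1 - r) * (1 - q) := by linarith
    rw [ht']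
    ring

end relative

section basic

variable {X : Type*} [Fintype X]

lemma bw_nonneg {p : ℝ} (h0 : 0 ≤ p) (h1 : p ≤ 1) (W : Finset X) : 0 ≤ bw p W := by
  unfold bw
  have : 0 ≤ 1 - p := by linarith
  positivity

lemma sum_bw (p : ℝ) : ∑ W : Finset X, bw p W = 1 := by
  classical
  have h := Finset.sum_pow_mul_eq_add_pow p (1 - p) (Finset.univ : Finset X)
  rw [Finset.powerset_univ] at h
  unfold bw
  rw [Finset.card_univ] at h
  rw [h]
  simp

lemma sum_bw_const (p c : ℝ) : ∑ W : Finset X, bw p W * c = c := by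
  rw [← Finset.sum_mul, sum_bw, one_mul]

lemma sum_bw_mono {p : ℝ} (h0 : 0 ≤ p) (h1 : p ≤ 1) {f g : Finset X → ℝ}
    (h : ∀ W, f W ≤ g W) : ∑ W : Finset X, bw p W * f W ≤ ∑ W : Finset X, bw p W * g W :=
  Finset.sum_le_sum (fun W _ => mul_le_mul_of_nonneg_left (h W) (bw_nonneg h0 h1 W))

lemma sum_bw_union [DecidableEq X] (r q t : ℝ) (ht : 1 - t = (1 - r) * (1 - q))
    (f : Finset X → ℝ) :
    ∑ W1 : Finset X, bw r W1 * ∑ W2 : Finset X, bw q W2 * f (W1 ∪ W2)
      = ∑ W : Finset X, bw t W * f W := by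
  have h := ES_union r q t ht (Finset.univ : Finset X) f
  unfold ES at h
  simp only [Finset.powerset_univ, Finset.card_univ] at h
  exact h

/-- monotonicity in `p` for increasing `f` -/
lemma sum_bw_le_of_le [DecidableEq X] {t p : ℝ} (h0 : 0 ≤ t) (htp : t ≤ p) (hp1 : p ≤ 1)
    {f : Finset X → ℝ} (hf : ∀ W W', W ⊆ W' → f W ≤ f W') :
    ∑ W : Finset X, bw t W * f W ≤ ∑ W : Finset X, bw p W * f W := by
  rcases eq_or_lt_of_le (le_trans htp hp1) with h1 | h1
  · have : p = t := by linarith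
    rw [this]
  · have hpos : 0 < 1 - t := by linarith
    set q : ℝ := 1 - (1 - p) / (1 - t) with hq
    have hq0 : 0 ≤ q := by
      rw [hq]
      have : (1 - p) / (1 - t) ≤ 1 := by
        rw [div_le_one hpos]; linarith
      linarith
    have hq1 : q ≤ 1 := by
      rw [hq]
      have : 0 ≤ (1 - p) / (1 - t) := div_nonneg (by linarith) hpos.le
      linarith
    have hrel : 1 - p = (1 - t) * (1 - q) := by
      rw [hq]; field_simp; ring
    rw [← sum_bw_union t q p hrel f]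
    apply sum_bw_mono h0 h1.le
    intro W1
    calc f W1 = ∑ W2 : Finset X, bw q W2 * f W1 := (sum_bw_const q (f W1)).symm
      _ ≤ ∑ W2 : Finset X, bw q W2 * f (W1 ∪ W2) :=
        sum_bw_mono hq0 hq1 (fun W2 => hf _ _ Finset.subset_union_left)

lemma bw_mul_pow_le [DecidableEq X] {r : ℝ} (h0 : 0 ≤ r) (h1 : r ≤ 1) {W T : Finset X}
    (hd : Disjoint W T) : bw r W * r ^ T.card ≤ bw r (W ∪ T) := by
  unfold bw
  have hc : (W ∪ T).card = W.card + T.card := Finset.card_union_of_disjoint hd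
  have hle : (W ∪ T).card ≤ Fintype.card X := Finset.card_le_univ _
  rw [hc] at hle ⊢
  have e : Fintype.card X - W.card = (Fintype.card X - (W.card + T.card)) + T.card := by omega
  rw [e, pow_add, pow_add]
  have h2 : 0 ≤ 1 - r := by linarith
  have h3 : (1 - r) ^ T.card ≤ 1 := pow_le_one₀ h2 (by linarith)
  have h4 : 0 ≤ r ^ W.card * r ^ T.card * (1 - r) ^ (Fintype.card X - (W.card + T.card)) := by
    positivity
  nlinarith [mul_le_mul_of_nonneg_left h3 h4]

end basic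

section round

variable {X Ω : Type*} [Fintype X] [DecidableEq X] [Fintype Ω] [Nonempty Ω]

omit [Nonempty Ω] in
lemma one_round (S : Ω → Finset X) (κ : ℝ) (hκ : 0 < κ)
    (hspread : ∀ T : Finset X,
      ((univ.filter (fun ω => T ⊆ S ω)).card : ℝ) ≤ κ ^ T.card * (Fintype.card Ω : ℝ))
    (A : Finset Ω) (τ : Ω → Finset X) (hτS : ∀ ω ∈ A, τ ω ⊆ S ω) (l : ℕ)
    (hτl : ∀ ω ∈ A, (τ ω).card ≤ l) (r : ℝ) (hr0 : 0 < r) (hr1 : r ≤ 1)
    (lam : ℝ) (hlam : 0 ≤ lam) :
    ∃ frag : Finset X → Ω → Finset X,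
      (∀ W, ∀ ω ∈ A, frag W ω ⊆ S ω) ∧
      (∀ W, ∀ ω ∈ A, ∃ ω' ∈ A, τ ω' ⊆ W ∪ frag W ω) ∧
      ∑ W : Finset X, bw r W * ∑ ω ∈ A, lam ^ (frag W ω).card
        ≤ (1 + lam * κ / r) ^ l * (Fintype.card Ω : ℝ) := by
  classical
  have hex : ∀ (W : Finset X) (ω : Ω), ω ∈ A → ∃ ω' : Ω, ω' ∈ A ∧ τ ω' ⊆ W ∪ τ ω ∧
      ∀ ω'' ∈ A, τ ω'' ⊆ W ∪ τ ω → (τ ω' \ W).card ≤ (τ ω'' \ W).card := by
    intro W ω hω
    have hne : (A.filter (fun ω' => τ ω' ⊆ W ∪ τ ω)).Nonempty :=
      ⟨ω, by simp [hω, Finset.subset_union_right]⟩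
    obtain ⟨ω', hω', hmin⟩ := Finset.exists_min_image _ (fun ω' => (τ ω' \ W).card) hne
    rw [Finset.mem_filter] at hω'
    exact ⟨ω', hω'.1, hω'.2, fun ω'' h1 h2 => hmin ω'' (Finset.mem_filter.2 ⟨h1, h2⟩)⟩
  choose! pick hpA hpsub hpmin using hex
  have hψ : ∀ Z : Finset X, ∃ U : Finset X, U.card ≤ l ∧
      ((∃ ω'' ∈ A, τ ω'' ⊆ Z) → ∃ ω'' ∈ A, τ ω'' ⊆ Z ∧ U = τ ω'') := by
    intro Z
    by_cases h : ∃ ω'' ∈ A, τ ω'' ⊆ Z
    · obtain ⟨ω'', h1, h2⟩ := h
      exact ⟨τ ω'', hτl ω'' h1, fun _ => ⟨ω'', h1, h2, rfl⟩⟩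
    · exact ⟨∅, by simp, fun h' => absurd h' h⟩
  choose ψ hψl hψex using hψ
  set frag : Finset X → Ω → Finset X := fun W ω => τ (pick W ω) \ W with hfrag
  have hfτ : ∀ W, ∀ ω ∈ A, frag W ω ⊆ τ ω := by
    intro W ω hω x hx
    rw [hfrag] at hx
    simp only [Finset.mem_sdiff] at hx
    have := hpsub W ω hω hx.1
    rcases Finset.mem_union.1 this with h | h
    · exact absurd h hx.2
    · exact h
  have hfd : ∀ W ω, Disjoint W (frag W ω) := by
    intro W ω
    exact Finset.disjoint_sdiff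
  have hfcov : ∀ W ω, τ (pick W ω) ⊆ W ∪ frag W ω := by
    intro W ω x hx
    by_cases hxW : x ∈ W
    · exact Finset.mem_union_left _ hxW
    · exact Finset.mem_union_right _ (Finset.mem_sdiff.2 ⟨hx, hxW⟩)
  have hkey : ∀ W, ∀ ω ∈ A, frag W ω ⊆ ψ (W ∪ frag W ω) := by
    intro W ω hω
    obtain ⟨ω'', h1, h2, h3⟩ := hψex (W ∪ frag W ω) ⟨pick W ω, hpA W ω hω, hfcov W ω⟩
    rw [h3]
    have hcand : τ ω'' ⊆ W ∪ τ ω :=
      h2.trans (Finset.union_subset_union_right (hfτ W ω hω))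
    have hmin := hpmin W ω hω ω'' h1 hcand
    have hsub : τ ω'' \ W ⊆ frag W ω := by
      intro x hx
      rw [Finset.mem_sdiff] at hx
      rcases Finset.mem_union.1 (h2 hx.1) with h | h
      · exact absurd h hx.2
      · exact h
    have heq : τ ω'' \ W = frag W ω := Finset.eq_of_subset_of_card_le hsub hmin
    rw [← heq]
    exact Finset.sdiff_subset
  refine ⟨frag, fun W ω hω => (hfτ W ω hω).trans (hτS ω hω),
    fun W ω hω => ⟨pick W ω, hpA W ω hω, hfcov W ω⟩, ?_⟩
  -- the counting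
  have hlr : 0 ≤ lam / r := div_nonneg hlam hr0.le
  have key : ∀ ω ∈ A, ∑ W : Finset X, bw r W * lam ^ (frag W ω).card
      ≤ ∑ Z : Finset X, ∑ T ∈ (ψ Z).powerset,
          if T ⊆ S ω then bw r Z * (lam / r) ^ T.card else 0 := by
    intro ω hω
    set g : Finset X × Finset X → ℝ := fun y => bw r y.1 * (lam / r) ^ y.2.card with hg
    set φ : Finset X → Finset X × Finset X := fun W => (W ∪ frag W ω, frag W ω) with hφ
    have hg0 : ∀ y, 0 ≤ g y := fun y => mul_nonneg (bw_nonneg hr0.le hr1 _) (pow_nonneg hlr _)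
    have step1 : ∀ W : Finset X, bw r W * lam ^ (frag W ω).card ≤ g (φ W) := by
      intro W
      have h := bw_mul_pow_le hr0.le hr1 (hfd W ω)
      simp only [hg, hφ]
      rw [div_pow, mul_div_assoc', le_div_iff₀ (pow_pos hr0 _)]
      calc bw r W * lam ^ (frag W ω).card * r ^ (frag W ω).card
          = (bw r W * r ^ (frag W ω).card) * lam ^ (frag W ω).card := by ring
        _ ≤ bw r (W ∪ frag W ω) * lam ^ (frag W ω).card :=
          mul_le_mul_of_nonneg_right h (pow_nonneg hlam _)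
    have hinj : Set.InjOn φ (↑(Finset.univ : Finset (Finset X))) := by
      intro W _ W' _ h
      simp only [hφ, Prod.mk.injEq] at h
      have e1 : (W ∪ frag W ω) \ frag W ω = W :=
        Finset.union_sdiff_cancel_right (hfd W ω)
      have e2 : (W' ∪ frag W' ω) \ frag W' ω = W' :=
        Finset.union_sdiff_cancel_right (hfd W' ω)
      rw [← e1, ← e2, h.1, h.2]
    set B : Finset (Finset X × Finset X) :=
      Finset.univ.filter (fun y => y.2 ⊆ ψ y.1 ∧ y.2 ⊆ S ω) with hB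
    have hsub : Finset.univ.image φ ⊆ B := by
      intro y hy
      obtain ⟨W, _, rfl⟩ := Finset.mem_image.1 hy
      rw [hB, Finset.mem_filter]
      exact ⟨Finset.mem_univ _, hkey W ω hω, (hfτ W ω hω).trans (hτS ω hω)⟩
    calc ∑ W : Finset X, bw r W * lam ^ (frag W ω).card
        ≤ ∑ W : Finset X, g (φ W) := Finset.sum_le_sum (fun W _ => step1 W)
      _ = ∑ y ∈ Finset.univ.image φ, g y := (Finset.sum_image hinj).symm
      _ ≤ ∑ y ∈ B, g y := Finset.sum_le_sum_of_subset_of_nonneg hsub (fun y _ _ => hg0 y)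
      _ = ∑ Z : Finset X, ∑ T ∈ (ψ Z).powerset.filter (fun T => T ⊆ S ω), g (Z, T) := by
          apply Finset.sum_finset_product
          intro y
          simp [hB]
      _ = _ := by
          apply Finset.sum_congr rfl
          intro Z _
          rw [Finset.sum_filter]
  have hx0 : 0 ≤ lam * κ / r := div_nonneg (mul_nonneg hlam hκ.le) hr0.le
  calc ∑ W : Finset X, bw r W * ∑ ω ∈ A, lam ^ (frag W ω).card
      = ∑ ω ∈ A, ∑ W : Finset X, bw r W * lam ^ (frag W ω).card := by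
        simp only [Finset.mul_sum]
        rw [Finset.sum_comm]
    _ ≤ ∑ ω ∈ A, ∑ Z : Finset X, ∑ T ∈ (ψ Z).powerset,
          (if T ⊆ S ω then bw r Z * (lam / r) ^ T.card else 0) := Finset.sum_le_sum key
    _ ≤ ∑ ω : Ω, ∑ Z : Finset X, ∑ T ∈ (ψ Z).powerset,
          (if T ⊆ S ω then bw r Z * (lam / r) ^ T.card else 0) := by
        apply Finset.sum_le_sum_of_subset_of_nonneg (Finset.subset_univ _)
        intro ω _ _
        apply Finset.sum_nonneg
        intro Z _
        apply Finset.sum_nonneg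
        intro T _
        split_ifs
        · exact mul_nonneg (bw_nonneg hr0.le hr1 _) (pow_nonneg hlr _)
        · exact le_rfl
    _ = ∑ Z : Finset X, ∑ T ∈ (ψ Z).powerset, ∑ ω : Ω,
          (if T ⊆ S ω then bw r Z * (lam / r) ^ T.card else 0) := by
        rw [Finset.sum_comm]
        apply Finset.sum_congr rfl
        intro Z _
        rw [Finset.sum_comm]
    _ = ∑ Z : Finset X, ∑ T ∈ (ψ Z).powerset,
          ((univ.filter (fun ω => T ⊆ S ω)).card : ℝ) * (bw r Z * (lam / r) ^ T.card) := by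
        apply Finset.sum_congr rfl
        intro Z _
        apply Finset.sum_congr rfl
        intro T _
        rw [← Finset.sum_filter, Finset.sum_const, nsmul_eq_mul]
    _ ≤ ∑ Z : Finset X, ∑ T ∈ (ψ Z).powerset,
          (κ ^ T.card * (Fintype.card Ω : ℝ)) * (bw r Z * (lam / r) ^ T.card) := by
        apply Finset.sum_le_sum
        intro Z _
        apply Finset.sum_le_sum
        intro T _
        exact mul_le_mul_of_nonneg_right (hspread T)
          (mul_nonneg (bw_nonneg hr0.le hr1 _) (pow_nonneg hlr _))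
    _ = ∑ Z : Finset X, bw r Z * ((1 + lam * κ / r) ^ (ψ Z).card * (Fintype.card Ω : ℝ)) := by
        apply Finset.sum_congr rfl
        intro Z _
        have h := Finset.sum_pow_mul_eq_add_pow (lam * κ / r) 1 (ψ Z)
        rw [add_comm 1 (lam * κ / r), ← h, Finset.sum_mul, Finset.mul_sum]
        apply Finset.sum_congr rfl
        intro T _
        rw [one_pow, mul_one]
        have : (lam * κ / r) ^ T.card = κ ^ T.card * (lam / r) ^ T.card := by
          rw [← mul_pow]; congr 1; ring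
        rw [this]
        ring
    _ ≤ ∑ Z : Finset X, bw r Z * ((1 + lam * κ / r) ^ l * (Fintype.card Ω : ℝ)) := by
        apply sum_bw_mono hr0.le hr1
        intro Z
        apply mul_le_mul_of_nonneg_right _ (Nat.cast_nonneg _)
        exact pow_le_pow_right₀ (by linarith) (hψl Z)
    _ = (1 + lam * κ / r) ^ l * (Fintype.card Ω : ℝ) := sum_bw_const _ _

/-- size bound with `j` rounds remaining -/
def ell : ℕ → ℕ
  | 0 => 0
  | (j + 1) => 2 ^ j

lemma ell_kill (j n : ℕ) (h : ¬ n ≤ ell j) : 2 ^ j ≤ 2 * n := by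
  cases j with
  | zero => simp only [ell] at h; simp; omega
  | succ k => simp only [ell] at h; rw [pow_succ]; omega

omit [Nonempty Ω] in
theorem iterate (S : Ω → Finset X) (κ : ℝ) (hκ : 0 < κ)
    (hspread : ∀ T : Finset X,
      ((univ.filter (fun ω => T ⊆ S ω)).card : ℝ) ≤ κ ^ T.card * (Fintype.card Ω : ℝ))
    (r : ℝ) (hr : r = 64 * κ) (hr1 : r ≤ 1) :
    ∀ (j : ℕ) (A : Finset Ω) (τ : Ω → Finset X), (∀ ω ∈ A, τ ω ⊆ S ω) →
      (∀ ω ∈ A, (τ ω).card ≤ ell j) →
      (A.card : ℝ) - (1 - (1 / 4 : ℝ) ^ j) / 3 * (Fintype.card Ω : ℝ)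
        ≤ (Fintype.card Ω : ℝ) *
          ∑ W : Finset X, bw (1 - (1 - r) ^ j) W * ind (∃ ω ∈ A, τ ω ⊆ W) := by
  classical
  have hr0 : 0 < r := by rw [hr]; positivity
  have ht0 : ∀ j : ℕ, 0 ≤ 1 - (1 - r) ^ j := by
    intro j
    have : (1 - r) ^ j ≤ 1 := pow_le_one₀ (by linarith) (by linarith)
    linarith
  have ht1 : ∀ j : ℕ, 1 - (1 - r) ^ j ≤ 1 := by
    intro j
    have : 0 ≤ (1 - r) ^ j := pow_nonneg (by linarith) _
    linarith
  have hΩ : (0 : ℝ) ≤ (Fintype.card Ω : ℝ) := Nat.cast_nonneg _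
  intro j
  induction j with
  | zero =>
    intro A τ _ hτl
    have h1 : ∀ W : Finset X, ind A.Nonempty ≤ ind (∃ ω ∈ A, τ ω ⊆ W) := by
      intro W
      apply ind_mono
      rintro ⟨ω, hω⟩
      refine ⟨ω, hω, ?_⟩
      have := hτl ω hω
      simp only [ell, Nat.le_zero, Finset.card_eq_zero] at this
      rw [this]
      exact Finset.empty_subset _
    have h2 := sum_bw_mono (ht0 0) (ht1 0) h1
    rw [sum_bw_const] at h2
    have h3 : (A.card : ℝ) ≤ (Fintype.card Ω : ℝ) * ind A.Nonempty := by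
      by_cases hA : A.Nonempty
      · rw [ind_of hA, mul_one]
        exact_mod_cast Finset.card_le_univ A
      · rw [Finset.not_nonempty_iff_eq_empty] at hA
        rw [hA]; simp [ind_nonneg, hΩ, mul_nonneg]
    have h4 := mul_le_mul_of_nonneg_left h2 hΩ
    simp only [pow_zero, sub_self, zero_div, zero_mul, sub_zero] at h4 ⊢
    linarith
  | succ j ih =>
    intro A τ hτS hτl
    obtain ⟨frag, hfS, hfex, hfsum⟩ := one_round S κ hκ hspread A τ hτS (2 ^ j) hτl r hr0 hr1 64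
      (by norm_num)
    have h64 : 1 + 64 * κ / r = 2 := by
      rw [hr]; field_simp; norm_num
    rw [h64] at hfsum
    set A' : Finset X → Finset Ω := fun W => A.filter (fun ω => (frag W ω).card ≤ ell j) with hA'
    set c : ℝ := (1 - (1 / 4 : ℝ) ^ j) / 3 * (Fintype.card Ω : ℝ) with hc
    have IH : ∀ W1 : Finset X, ((A' W1).card : ℝ) - c ≤ (Fintype.card Ω : ℝ) *
        ∑ W2 : Finset X, bw (1 - (1 - r) ^ j) W2 * ind (∃ ω ∈ A' W1, frag W1 ω ⊆ W2) := by
      intro W1
      apply ih (A' W1) (frag W1)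
      · intro ω hω
        exact hfS W1 ω (Finset.mem_filter.1 hω).1
      · intro ω hω
        exact (Finset.mem_filter.1 hω).2
    have hmono : ∀ W1 W2 : Finset X, ind (∃ ω ∈ A' W1, frag W1 ω ⊆ W2)
        ≤ ind (∃ ω ∈ A, τ ω ⊆ W1 ∪ W2) := by
      intro W1 W2
      apply ind_mono
      rintro ⟨ω, hω, hsub⟩
      obtain ⟨ω', hω', h⟩ := hfex W1 ω (Finset.mem_filter.1 hω).1
      exact ⟨ω', hω', h.trans (Finset.union_subset_union_right hsub)⟩
    have hunion := sum_bw_union r (1 - (1 - r) ^ j) (1 - (1 - r) ^ (j + 1))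
      (by rw [pow_succ]; ring) (fun W => ind (∃ ω ∈ A, τ ω ⊆ W))
    rw [← hunion]
    have h8 : (0 : ℝ) < 8 ^ (2 ^ j) := by positivity
    have hkill : ∀ W1 : Finset X, (A.card : ℝ) - ((A' W1).card : ℝ)
        ≤ (∑ ω ∈ A, (64 : ℝ) ^ (frag W1 ω).card) / 8 ^ (2 ^ j) := by
      intro W1
      have hcard := Finset.card_filter_add_card_filter_not (s := A)
        (fun ω => (frag W1 ω).card ≤ ell j)
      have hcard' : (A.card : ℝ) - ((A' W1).card : ℝ)
          = ((A.filter (fun ω => ¬ (frag W1 ω).card ≤ ell j)).card : ℝ) := by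
        rw [← hcard]; push_cast; ring
      rw [hcard', le_div_iff₀ h8]
      calc ((A.filter (fun ω => ¬ (frag W1 ω).card ≤ ell j)).card : ℝ) * 8 ^ (2 ^ j)
          = ∑ ω ∈ A.filter (fun ω => ¬ (frag W1 ω).card ≤ ell j), (8 : ℝ) ^ (2 ^ j) := by
            rw [Finset.sum_const, nsmul_eq_mul]
        _ ≤ ∑ ω ∈ A.filter (fun ω => ¬ (frag W1 ω).card ≤ ell j),
              (64 : ℝ) ^ (frag W1 ω).card := by
            apply Finset.sum_le_sum
            intro ω hω
            have h := ell_kill j _ (Finset.mem_filter.1 hω).2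
            have e : (64 : ℝ) ^ (frag W1 ω).card = 8 ^ (2 * (frag W1 ω).card) := by
              rw [pow_mul]; norm_num
            rw [e]
            exact pow_le_pow_right₀ (by norm_num) h
        _ ≤ ∑ ω ∈ A, (64 : ℝ) ^ (frag W1 ω).card := by
            apply Finset.sum_le_sum_of_subset_of_nonneg (Finset.filter_subset _ _)
            intro ω _ _
            positivity
    -- lower bound for each W1
    have hlow : ∀ W1 : Finset X,
        (A.card : ℝ) - c - (∑ ω ∈ A, (64 : ℝ) ^ (frag W1 ω).card) / 8 ^ (2 ^ j)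
        ≤ (Fintype.card Ω : ℝ) *
          ∑ W2 : Finset X, bw (1 - (1 - r) ^ j) W2 * ind (∃ ω ∈ A, τ ω ⊆ W1 ∪ W2) := by
      intro W1
      have h1 := IH W1
      have h2 := sum_bw_mono (ht0 j) (ht1 j) (hmono W1)
      have h3 := mul_le_mul_of_nonneg_left h2 hΩ
      have h4 := hkill W1
      linarith
    have hsum := sum_bw_mono hr0.le hr1 hlow
    have e1 : ∑ W1 : Finset X, bw r W1 *
        ((A.card : ℝ) - c - (∑ ω ∈ A, (64 : ℝ) ^ (frag W1 ω).card) / 8 ^ (2 ^ j))
        = (A.card : ℝ) - c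
          - (∑ W1 : Finset X, bw r W1 * ∑ ω ∈ A, (64 : ℝ) ^ (frag W1 ω).card) / 8 ^ (2 ^ j) := by
      have hterm : ∀ W1 : Finset X, bw r W1 *
          ((A.card : ℝ) - c - (∑ ω ∈ A, (64 : ℝ) ^ (frag W1 ω).card) / 8 ^ (2 ^ j))
          = bw r W1 * ((A.card : ℝ) - c)
            - (bw r W1 * ∑ ω ∈ A, (64 : ℝ) ^ (frag W1 ω).card) / 8 ^ (2 ^ j) := by
        intro W1; ring
      rw [Finset.sum_congr rfl (fun W1 _ => hterm W1), Finset.sum_sub_distrib, sum_bw_const,
        Finset.sum_div]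
    have e2 : ∑ W1 : Finset X, bw r W1 * ((Fintype.card Ω : ℝ) *
          ∑ W2 : Finset X, bw (1 - (1 - r) ^ j) W2 * ind (∃ ω ∈ A, τ ω ⊆ W1 ∪ W2))
        = (Fintype.card Ω : ℝ) * ∑ W1 : Finset X, bw r W1 *
          ∑ W2 : Finset X, bw (1 - (1 - r) ^ j) W2 * ind (∃ ω ∈ A, τ ω ⊆ W1 ∪ W2) := by
      rw [Finset.mul_sum]
      apply Finset.sum_congr rfl
      intro W _
      ring
    rw [e1, e2] at hsum
    have h5 : (∑ W1 : Finset X, bw r W1 * ∑ ω ∈ A, (64 : ℝ) ^ (frag W1 ω).card) / 8 ^ (2 ^ j)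
        ≤ (1 / 4 : ℝ) ^ (j + 1) * (Fintype.card Ω : ℝ) := by
      rw [div_le_iff₀ h8]
      have h6 : (2 : ℝ) ^ (2 ^ j) = (1 / 4 : ℝ) ^ (2 ^ j) * 8 ^ (2 ^ j) := by
        rw [← mul_pow]; norm_num
      have h7 : (1 / 4 : ℝ) ^ (2 ^ j) ≤ (1 / 4 : ℝ) ^ (j + 1) :=
        pow_le_pow_of_le_one (by norm_num) (by norm_num) (Nat.lt_two_pow_self)
      calc _ ≤ (2 : ℝ) ^ (2 ^ j) * (Fintype.card Ω : ℝ) := hfsum
        _ = (1 / 4 : ℝ) ^ (2 ^ j) * (Fintype.card Ω : ℝ) * 8 ^ (2 ^ j) := by rw [h6]; ring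
        _ ≤ (1 / 4 : ℝ) ^ (j + 1) * (Fintype.card Ω : ℝ) * 8 ^ (2 ^ j) := by
          apply mul_le_mul_of_nonneg_right _ h8.le
          exact mul_le_mul_of_nonneg_right h7 hΩ
    have h9 : (1 - (1 / 4 : ℝ) ^ (j + 1)) / 3 * (Fintype.card Ω : ℝ)
        = c + (1 / 4 : ℝ) ^ (j + 1) * (Fintype.card Ω : ℝ) := by
      rw [hc, pow_succ]; ring
    rw [h9]
    linarith

end round

open Classical in
theorem spread_lemma {X Ω : Type*} [Fintype X] [DecidableEq X] [Fintype Ω] [Nonempty Ω]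
    (S : Ω → Finset X) (m : ℕ) (hS : ∀ ω, (S ω).card ≤ 2 ^ m) (κ : ℝ) (hκ : 0 < κ)
    (hspread : ∀ T : Finset X,
      ((univ.filter (fun ω => T ⊆ S ω)).card : ℝ) ≤ κ ^ T.card * (Fintype.card Ω : ℝ))
    (p : ℝ) (hp1 : p ≤ 1) (hp : 64 * κ * (m + 1) ≤ p) :
    1 / 2 ≤ ∑ W : Finset X, bw p W * (if ∃ ω, S ω ⊆ W then (1 : ℝ) else 0) := by
  have hm : (1 : ℝ) ≤ (m : ℝ) + 1 := by
    have : (0 : ℝ) ≤ (m : ℝ) := Nat.cast_nonneg _
    linarith
  have hr0 : 0 < 64 * κ := by positivity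
  have hrle : 64 * κ ≤ 64 * κ * (m + 1) := by nlinarith
  have hr1 : 64 * κ ≤ 1 := by linarith
  have hmain := iterate S κ hκ hspread (64 * κ) rfl hr1 (m + 1) Finset.univ S
    (fun ω _ => Finset.Subset.refl _) (fun ω _ => hS ω)
  have hΩ : (0 : ℝ) < (Fintype.card Ω : ℝ) := by exact_mod_cast Fintype.card_pos
  rw [Finset.card_univ] at hmain
  set t : ℝ := 1 - (1 - 64 * κ) ^ (m + 1) with ht
  have h14 : (0 : ℝ) ≤ (1 / 4 : ℝ) ^ (m + 1) := by positivity
  have h1 : (1 : ℝ) / 2 ≤ ∑ W : Finset X, bw t W * ind (∃ ω ∈ Finset.univ, S ω ⊆ W) := by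
    have h2 : (Fintype.card Ω : ℝ) * (1 / 2) ≤ (Fintype.card Ω : ℝ) *
        ∑ W : Finset X, bw t W * ind (∃ ω ∈ Finset.univ, S ω ⊆ W) := by
      refine le_trans ?_ hmain
      nlinarith
    exact le_of_mul_le_mul_left h2 hΩ
  have ht0 : 0 ≤ t := by
    have : (1 - 64 * κ) ^ (m + 1) ≤ 1 := pow_le_one₀ (by linarith) (by linarith)
    rw [ht]; linarith
  have htp : t ≤ p := by
    have hb := one_add_mul_le_pow (a := -(64 * κ)) (by linarith) (m + 1)
    have e : (1 : ℝ) + -(64 * κ) = 1 - 64 * κ := by ring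
    rw [e] at hb
    push_cast at hb
    rw [ht]
    nlinarith
  have h3 := sum_bw_le_of_le (X := X) ht0 htp hp1
    (f := fun W => ind (∃ ω ∈ Finset.univ, S ω ⊆ W)) (by
      intro W W' hWW'
      apply ind_mono
      rintro ⟨ω, hω, h⟩
      exact ⟨ω, hω, h.trans hWW'⟩)
  refine le_trans (le_trans h1 h3) (le_of_eq ?_)
  apply Finset.sum_congr rfl
  intro W _
  congr 1
  by_cases h : ∃ ω, S ω ⊆ W
  · rw [if_pos h, ind_of]
    obtain ⟨ω, hω⟩ := h
    exact ⟨ω, Finset.mem_univ _, hω⟩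
  · rw [if_neg h, ind_not]
    rintro ⟨ω, _, hω⟩
    exact h ⟨ω, hω⟩

end Vale.Agent.Lib.P064S
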